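import Mathlib

/-!
# P084 (Tingley's problem): strict convexity is determined by the metric of the unit sphere

Let `f : S_X → S_Y` be a surjective isometry between the unit spheres of two real normed spaces of
arbitrary dimension.  Then `X` is strictly convex if and only if `Y` is, and in that case
`f (-x) = - f x` and `‖f x + f y‖ = ‖x + y‖` for all `x, y`.

Proof: a space is strictly convex iff `-x` is the only point of the sphere at distance `2` from `x`.
-/

namespace Vale.Agent.Results.P084.StrictConvexity

open Metric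

variable {X Y : Type*} [NormedAddCommGroup X] [NormedSpace ℝ X]
  [NormedAddCommGroup Y] [NormedSpace ℝ Y]

/-- `-x` is the only point of the unit sphere at distance `2` from `x`. -/
def UniqueAntipode (X : Type*) [NormedAddCommGroup X] : Prop :=
  ∀ x y : sphere (0 : X) 1, dist x y = 2 → y = -x

theorem norm_coe (x : sphere (0 : X) 1) : ‖(x : X)‖ = 1 := by
  have := x.2
  rwa [mem_sphere_zero_iff_norm] at this

theorem dist_neg_self (x : sphere (0 : X) 1) : dist x (-x) = 2 := by
  rw [Subtype.dist_eq, dist_eq_norm, coe_neg_sphere, sub_neg_eq_add, ← two_smul ℝ (x : X),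
    norm_smul, norm_coe]
  norm_num

theorem uniqueAntipode_iff : UniqueAntipode X ↔ StrictConvexSpace ℝ X := by
  constructor
  · intro h
    refine StrictConvexSpace.of_norm_add ?_
    intro x y hx hy hxy
    let x' : sphere (0 : X) 1 := ⟨x, by simpa using hx⟩
    let y' : sphere (0 : X) 1 := ⟨y, by simpa using hy⟩
    have hd : dist x' (-y') = 2 := by
      rw [Subtype.dist_eq, dist_eq_norm, coe_neg_sphere, sub_neg_eq_add]
      exact hxy
    have := h x' (-y') hd
    have h2 : y' = x' := neg_injective this
    have h3 : y = x := congrArg Subtype.val h2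
    rw [h3]
  · intro h x y hd
    rw [Subtype.dist_eq, dist_eq_norm] at hd
    have h1 : ‖(x : X)‖ = ‖-(y : X)‖ := by rw [norm_neg, norm_coe, norm_coe]
    have h2 : ‖(x : X) + -(y : X)‖ = ‖(x : X)‖ + ‖-(y : X)‖ := by
      rw [← sub_eq_add_neg, hd, norm_neg, norm_coe, norm_coe]
      norm_num
    have h3 := eq_of_norm_eq_of_norm_add_eq h1 h2
    apply Subtype.ext
    rw [coe_neg_sphere, h3, neg_neg]

theorem result (f : sphere (0 : X) 1 → sphere (0 : Y) 1) (hf : Isometry f)
    (hs : Function.Surjective f) :
    (StrictConvexSpace ℝ X ↔ StrictConvexSpace ℝ Y) ∧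
    (StrictConvexSpace ℝ X →
      (∀ x, f (-x) = -f x) ∧ ∀ x y, ‖(f x : Y) + (f y : Y)‖ = ‖(x : X) + (y : X)‖) := by
  have hanti : UniqueAntipode X → ∀ x, f (-x) = -f x := by
    intro h x
    obtain ⟨z, hz⟩ := hs (-f x)
    have hd : dist x z = 2 := by
      rw [← hf.dist_eq, hz]
      exact dist_neg_self (f x)
    rw [← h x z hd, hz]
  refine ⟨?_, ?_⟩
  · rw [← uniqueAntipode_iff, ← uniqueAntipode_iff]
    constructor
    · intro h u v hd
      obtain ⟨x, rfl⟩ := hs u
      obtain ⟨z, rfl⟩ := hs v
      rw [hf.dist_eq] at hd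
      rw [h x z hd, hanti h x]
    · intro h x z hd
      have h1 : f z = -f x := h (f x) (f z) (by rw [hf.dist_eq]; exact hd)
      have h2 : f (-x) = -f x := h (f x) (f (-x)) (by rw [hf.dist_eq]; exact dist_neg_self x)
      exact hf.injective (h1.trans h2.symm)
  · intro hX
    have hA := hanti (uniqueAntipode_iff.2 hX)
    refine ⟨hA, fun x y => ?_⟩
    have h1 : dist (f x) (f (-y)) = dist x (-y) := hf.dist_eq x (-y)
    rw [hA y, Subtype.dist_eq, Subtype.dist_eq, dist_eq_norm, dist_eq_norm, coe_neg_sphere,
      coe_neg_sphere, sub_neg_eq_add, sub_neg_eq_add] at h1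
    exact h1

end Vale.Agent.Results.P084.StrictConvexity
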